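import Vale.Agent.P032.H678.VW2

/-!
# P032: the rim of a lens, plane geometry

Two unit circles `S(u)`, `S(W)` with the common points `p`, `p'`; the rim is the open arc of `S(u)`
inside the disc of `W`.

* `apex_sep` : `h` on the rim, `g` an apex of the unit pair `(u, h)`: the circle of `g` separates `p`
  and `p'`;
* `both_near` : `h` on the rim, `q` on `S(h)` with `|q - p|, |q - p'| ≤ 1`: `q = u`;
* `both_far` : `h` on the rim, `q ≠ u` on `S(h)` with `|q - p|, |q - p'| ≥ 1`: the fourth point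
  `q + u - h` of the rhombus is in the closed disc of `W`.
-/

open Set Filter Topology Metric

noncomputable section

namespace Vale.Agent.P032.H295

open Vale.Agent.P032.Six

/-! ### real inequalities -/

theorem real_apex {t x y P Q : ℝ} (ht : 0 < t) (ht3 : 1 < 3 * t ^ 2) (hy : 0 < y)
    (h1 : x ^ 2 + (y + t) ^ 2 = 1 + t ^ 2) (h2 : P ^ 2 + Q ^ 2 = 1 + t ^ 2)
    (h3 : x * P + (y + t) * Q = (1 + t ^ 2) / 2) : (t * Q - (1 + t ^ 2) / 2) ^ 2 < P ^ 2 := by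
  have hR : 0 < 1 + t ^ 2 := by positivity
  have e1 : Q ^ 2 - (y + t) * Q + (1 + t ^ 2) / 4 - x ^ 2 = 0 := by
    have h4 : ((1 + t ^ 2) / 2 - (y + t) * Q) ^ 2 = x ^ 2 * (1 + t ^ 2 - Q ^ 2) := by
      have h5 : (1 + t ^ 2) / 2 - (y + t) * Q = x * P := by linarith
      have h6 : P ^ 2 = 1 + t ^ 2 - Q ^ 2 := by linarith
      rw [h5, ← h6]; ring
    have h7 : (1 + t ^ 2) * (Q ^ 2 - (y + t) * Q + (1 + t ^ 2) / 4 - x ^ 2) = 0 := by
      have h8 : (y + t) ^ 2 = 1 + t ^ 2 - x ^ 2 := by linarith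
      have h9 : ((1 + t ^ 2) / 2 - (y + t) * Q) ^ 2 =
          (1 + t ^ 2) ^ 2 / 4 - (1 + t ^ 2) * (y + t) * Q + (y + t) ^ 2 * Q ^ 2 := by ring
      rw [h9, h8] at h4
      linear_combination h4
    rcases mul_eq_zero.1 h7 with h8 | h8
    · exact absurd h8 hR.ne'
    · exact h8
  have e2 : P ^ 2 - (t * Q - (1 + t ^ 2) / 2) ^ 2 = (1 + t ^ 2) * (y * (y + 2 * t - Q)) := by
    have h6 : P ^ 2 = 1 + t ^ 2 - Q ^ 2 := by linarith
    have h8 : x ^ 2 = 1 + t ^ 2 - (y + t) ^ 2 := by linarith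
    rw [h6]
    rw [h8] at e1
    linear_combination (-(1 + t ^ 2)) * e1
  have hQ : Q < 2 * t := by
    have h4 : Q ^ 2 < (2 * t) ^ 2 := by
      have h5 := sq_nonneg P
      have h6 : (2 * t) ^ 2 = 4 * t ^ 2 := by ring
      rw [h6]; linarith
    exact lt_of_pow_lt_pow_left₀ 2 (by positivity) h4
  have h5 : 0 < (1 + t ^ 2) * (y * (y + 2 * t - Q)) := by
    have : 0 < y + 2 * t - Q := by linarith
    positivity
  linarith

theorem real_near {t x y ξ η : ℝ} (ht : 0 < t) (hy : 0 < y)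
    (h1 : x ^ 2 + (y + t) ^ 2 = 1 + t ^ 2) (h2 : (ξ - 1) ^ 2 + η ^ 2 ≤ 1 + t ^ 2)
    (h3 : (ξ + 1) ^ 2 + η ^ 2 ≤ 1 + t ^ 2) (h4 : (ξ - x) ^ 2 + (η - y) ^ 2 = 1 + t ^ 2) :
    ξ = 0 ∧ η = -t := by
  have hyt : 0 < y * t := mul_pos hy ht
  have hx : x ^ 2 < 1 := by
    have := sq_nonneg y
    linarith [show (y + t) ^ 2 = y ^ 2 + 2 * (y * t) + t ^ 2 by ring]
  obtain ⟨hx0, hx1⟩ := abs_lt.1 ((sq_lt_one_iff_abs_lt_one x).1 hx)
  have e1 : ξ ^ 2 + η ^ 2 - 2 * ξ * x ≤ t ^ 2 := by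
    have a1 := mul_le_mul_of_nonneg_left h2 (by linarith : (0 : ℝ) ≤ (1 + x) / 2)
    have a2 := mul_le_mul_of_nonneg_left h3 (by linarith : (0 : ℝ) ≤ (1 - x) / 2)
    linarith [show (1 + x) / 2 * ((ξ - 1) ^ 2 + η ^ 2) + (1 - x) / 2 * ((ξ + 1) ^ 2 + η ^ 2) =
      ξ ^ 2 + η ^ 2 - 2 * ξ * x + 1 by ring,
      show (1 + x) / 2 * (1 + t ^ 2) + (1 - x) / 2 * (1 + t ^ 2) = 1 + t ^ 2 by ring]
  have e2 : ξ ^ 2 + η ^ 2 - 2 * ξ * x = t ^ 2 + 2 * y * (t + η) := by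
    linear_combination h4 - h1
  have e3 : t + η ≤ 0 := by
    by_contra hcon
    push Not at hcon
    have : 0 < 2 * y * (t + η) := by positivity
    linarith
  have e4 : ξ ^ 2 + η ^ 2 ≤ t ^ 2 := by
    linarith [show (ξ - 1) ^ 2 + η ^ 2 + ((ξ + 1) ^ 2 + η ^ 2) = 2 * (ξ ^ 2 + η ^ 2 + 1) by ring]
  have e5 : t ^ 2 ≤ η ^ 2 := by
    have h5 := pow_le_pow_left₀ ht.le (by linarith : t ≤ -η) 2
    rwa [neg_sq] at h5
  have e6 : ξ ^ 2 = 0 := le_antisymm (by linarith) (sq_nonneg ξ)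
  have e7 : ξ = 0 := (pow_eq_zero_iff (by norm_num)).1 e6
  refine ⟨e7, ?_⟩
  have e8 : η ^ 2 = t ^ 2 := le_antisymm (by linarith) e5
  rcases sq_eq_sq_iff_eq_or_eq_neg.1 e8 with h | h
  · linarith
  · exact h

theorem real_far {t x y ξ η : ℝ} (ht : 0 < t) (hy : 0 < y)
    (h1 : x ^ 2 + (y + t) ^ 2 = 1 + t ^ 2) (h2 : 1 + t ^ 2 ≤ (ξ - 1) ^ 2 + η ^ 2)
    (h3 : 1 + t ^ 2 ≤ (ξ + 1) ^ 2 + η ^ 2) (h4 : (ξ - x) ^ 2 + (η - y) ^ 2 = 1 + t ^ 2)
    (h5 : ¬ (ξ = 0 ∧ η = -t)) : (ξ - x) ^ 2 + (η - y - 2 * t) ^ 2 ≤ 1 + t ^ 2 := by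
  obtain ⟨β, hβ⟩ : ∃ β, β = η + t := ⟨_, rfl⟩
  have hη : η = β - t := by rw [hβ]; ring
  subst hη
  have hx2 : y ^ 2 + 2 * y * t = 1 - x ^ 2 := by linear_combination h1
  have k1 : ξ ^ 2 + β ^ 2 = 2 * ξ * x + 2 * β * (t + y) := by linear_combination h4 - h1
  have A1 : 0 ≤ (x - 1) * ξ + y * β := by
    linarith [show (ξ - 1) ^ 2 + (β - t) ^ 2 - ((ξ - x) ^ 2 + (β - t - y) ^ 2) =
      2 * ((x - 1) * ξ + y * β) + (1 - x ^ 2 - (y ^ 2 + 2 * y * t)) by ring]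
  have B1 : 0 ≤ (1 + x) * ξ + y * β := by
    linarith [show (ξ + 1) ^ 2 + (β - t) ^ 2 - ((ξ - x) ^ 2 + (β - t - y) ^ 2) =
      2 * ((1 + x) * ξ + y * β) + (1 - x ^ 2 - (y ^ 2 + 2 * y * t)) by ring]
  have hne : 0 < ξ ^ 2 + β ^ 2 := by
    by_contra hcon
    push Not at hcon
    have h6 : ξ ^ 2 = 0 := le_antisymm (by linarith [sq_nonneg β]) (sq_nonneg ξ)
    have h7 : β ^ 2 = 0 := le_antisymm (by linarith [sq_nonneg ξ]) (sq_nonneg β)
    refine h5 ⟨(pow_eq_zero_iff (by norm_num)).1 h6, ?_⟩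
    have : β = 0 := (pow_eq_zero_iff (by norm_num)).1 h7
    rw [this]; ring
  have k2 : 0 ≤ ((x - 1) * ξ + y * β) * ((1 + x) * ξ + y * β) := mul_nonneg A1 B1
  have k3 : ((x - 1) * ξ + y * β) * ((1 + x) * ξ + y * β) =
      y * (y * β ^ 2 + 2 * x * ξ * β - (2 * t + y) * ξ ^ 2) := by
    linear_combination ξ ^ 2 * hx2
  have k4 : 0 ≤ y * β ^ 2 + 2 * x * ξ * β - (2 * t + y) * ξ ^ 2 := by
    rw [k3] at k2
    exact nonneg_of_mul_nonneg_right k2 hy
  have k5 : y * β ^ 2 + 2 * x * ξ * β - (2 * t + y) * ξ ^ 2 =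
      (β - (2 * t + y)) * (ξ ^ 2 + β ^ 2) := by
    linear_combination (-β) * k1
  have k6 : 0 ≤ β - (2 * t + y) := by
    rw [k5] at k4
    exact nonneg_of_mul_nonneg_left k4 hne
  have k7 : 0 ≤ t * (β - (2 * t + y)) := mul_nonneg ht.le k6
  linarith [show (ξ - x) ^ 2 + (β - t - y - 2 * t) ^ 2 =
    (ξ - x) ^ 2 + (β - t - y) ^ 2 - 4 * (t * (β - (2 * t + y))) by ring]

/-! ### coordinates -/

theorem nsq {A : ℂ} {t : ℝ} (hN : Complex.normSq A * (1 + t ^ 2) = 1) (m r s : ℂ) :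
    dist (m + r * A) (m + s * A) ^ 2 * (1 + t ^ 2) =
      (r.re - s.re) ^ 2 + (r.im - s.im) ^ 2 := by
  rw [H678.sq_dist', show m + r * A - (m + s * A) = (r - s) * A by ring, Complex.normSq_mul,
    H227.ns5]
  linear_combination ((r.re - s.re) ^ 2 + (r.im - s.im) ^ 2) * hN

/-- coordinates with `u` below -/
theorem coord_pos {u W p p' : ℂ} (hpu : dist p u = 1) (hpW : dist p W = 1)
    (hpu' : dist p' u = 1) (hpW' : dist p' W = 1) (hpp : p ≠ p') (hne : u ≠ W) :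
    ∃ (m A : ℂ) (t : ℝ), 0 < t ∧ A ≠ 0 ∧ u = m + (-(t * Complex.I)) * A ∧
      W = m + (t * Complex.I) * A ∧ Complex.normSq A * (1 + t ^ 2) = 1 ∧
      ((p = m + 1 * A ∧ p' = m + (-1) * A) ∨ (p = m + (-1) * A ∧ p' = m + 1 * A)) := by
  obtain ⟨m, A, t, hA, e1, e2, e3, e4, hN⟩ := H227.lens_coord hpu hpW hpu' hpW' hpp hne
  rcases lt_trichotomy t 0 with ht | ht | ht
  · refine ⟨m, A, -t, by linarith, hA, ?_, ?_, by rw [neg_sq]; exact hN,
      Or.inl ⟨by rw [e1]; ring, by rw [e2]; ring⟩⟩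
    · rw [e3]; push_cast; ring
    · rw [e4]; push_cast; ring
  · exfalso
    apply hne
    rw [e3, e4, ht]; simp
  · refine ⟨m, -A, t, ht, neg_ne_zero.2 hA, ?_, ?_, by rw [Complex.normSq_neg]; exact hN,
      Or.inr ⟨by rw [e1]; ring, by rw [e2]; ring⟩⟩
    · rw [e3]; ring
    · rw [e4]; ring

theorem re_ti (t : ℝ) : ((t : ℂ) * Complex.I).re = 0 := by simp

theorem im_ti (t : ℝ) : ((t : ℂ) * Complex.I).im = t := by simp

theorem sq_eq_one {x y : ℂ} (h : dist x y = 1) : dist x y ^ 2 = 1 := by rw [h, one_pow]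

theorem sq_lt_one {x y : ℂ} (h : dist x y < 1) : dist x y ^ 2 < 1 :=
  pow_lt_one₀ dist_nonneg h (by norm_num)

theorem sq_le_one {x y : ℂ} (h : dist x y ≤ 1) : dist x y ^ 2 ≤ 1 := pow_le_one₀ dist_nonneg h

theorem le_sq_one {x y : ℂ} (h : 1 ≤ dist x y) : 1 ≤ dist x y ^ 2 := one_le_pow₀ h

theorem lt_of_sq {x y : ℂ} (h : dist x y ^ 2 < 1) : dist x y < 1 := by
  by_contra hcon
  push Not at hcon
  exact absurd (le_sq_one hcon) (not_le.2 h)

theorem gt_of_sq {x y : ℂ} (h : 1 < dist x y ^ 2) : 1 < dist x y := by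
  by_contra hcon
  push Not at hcon
  exact absurd (sq_le_one hcon) (not_le.2 h)

theorem le_of_sq {x y : ℂ} (h : dist x y ^ 2 ≤ 1) : dist x y ≤ 1 := by
  by_contra hcon
  push Not at hcon
  have := one_lt_pow₀ hcon (n := 2) (by norm_num)
  linarith

/-- rim data in coordinates -/
theorem rim_coord {A m r : ℂ} {t : ℝ} (hN : Complex.normSq A * (1 + t ^ 2) = 1) (ht : 0 < t)
    (hhu : dist (m + r * A) (m + (-(t * Complex.I)) * A) = 1)
    (hhW : dist (m + r * A) (m + (t * Complex.I) * A) < 1) :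
    r.re ^ 2 + (r.im + t) ^ 2 = 1 + t ^ 2 ∧ 0 < r.im := by
  have hR : 0 < 1 + t ^ 2 := by positivity
  have n1 := nsq hN m r (-(t * Complex.I))
  have n2 := nsq hN m r (t * Complex.I)
  have s1 := sq_eq_one hhu
  have s2 := sq_lt_one hhW
  rw [s1, one_mul, Complex.neg_re, Complex.neg_im, re_ti, im_ti] at n1
  rw [re_ti, im_ti] at n2
  have e1 : r.re ^ 2 + (r.im + t) ^ 2 = 1 + t ^ 2 := by linarith [n1, show (r.re - -0) ^ 2 + (r.im - -t) ^ 2 = r.re ^ 2 + (r.im + t) ^ 2 by ring]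
  refine ⟨e1, ?_⟩
  have e2 : r.re ^ 2 + (r.im - t) ^ 2 < 1 + t ^ 2 := by
    have h3 := mul_lt_mul_of_pos_right s2 hR
    rw [one_mul] at h3
    rw [n2] at h3
    linarith [h3, show (r.re - 0) ^ 2 + (r.im - t) ^ 2 = r.re ^ 2 + (r.im - t) ^ 2 by ring]
  have e3 : 0 < 4 * (t * r.im) := by
    linarith [show r.re ^ 2 + (r.im + t) ^ 2 - (r.re ^ 2 + (r.im - t) ^ 2) = 4 * (t * r.im) by ring]
  have e4 : 0 < t * r.im := by linarith
  exact (mul_pos_iff_of_pos_left ht).1 e4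

/-- **the circle of an apex separates the two corners** -/
theorem apex_sep {u W p p' h g : ℂ} (hpu : dist p u = 1) (hpW : dist p W = 1)
    (hpu' : dist p' u = 1) (hpW' : dist p' W = 1) (hpp : p ≠ p') (hne : u ≠ W)
    (hd : dist p p' ≤ 1) (hhu : dist h u = 1) (hhW : dist h W < 1) (hgu : dist g u = 1)
    (hgh : dist g h = 1) :
    (dist g p < 1 ∧ 1 < dist g p') ∨ (dist g p' < 1 ∧ 1 < dist g p) := by
  obtain ⟨m, A, t, ht, hA, eu, eW, hN, hc⟩ := coord_pos hpu hpW hpu' hpW' hpp hne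
  have hR : 0 < 1 + t ^ 2 := by positivity
  obtain ⟨r, rfl⟩ : ∃ r, h = m + r * A := ⟨(h - m) / A, by field_simp; ring⟩
  obtain ⟨s, rfl⟩ : ∃ s, g = m + s * A := ⟨(g - m) / A, by field_simp; ring⟩
  rw [eu] at hhu hgu
  rw [eW] at hhW
  obtain ⟨e1, hy⟩ := rim_coord hN ht hhu hhW
  have n1 := nsq hN m s (-(t * Complex.I))
  rw [sq_eq_one hgu, one_mul, Complex.neg_re, Complex.neg_im, re_ti, im_ti] at n1
  have n2 := nsq hN m s r
  rw [sq_eq_one hgh, one_mul] at n2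
  -- `t` is large
  have ht3 : 1 < 3 * t ^ 2 := by
    have n3 := nsq hN m 1 (-1)
    have h4 : dist (m + 1 * A) (m + (-1) * A) ≤ 1 := by
      rcases hc with ⟨h5, h6⟩ | ⟨h5, h6⟩
      · rw [h5, h6] at hd; exact hd
      · rw [h5, h6, dist_comm] at hd; exact hd
    have h5 := mul_le_mul_of_nonneg_right (sq_le_one h4) hR.le
    rw [n3, one_mul] at h5
    simp only [Complex.one_re, Complex.neg_re, Complex.one_im, Complex.neg_im] at h5
    norm_num at h5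
    linarith
  have h3 : r.re * s.re + (r.im + t) * (s.im + t) = (1 + t ^ 2) / 2 := by
    linear_combination (-1 / 2) * n1 + (1 / 2) * n2 + (1 / 2) * e1
  have key := real_apex ht ht3 hy e1 (P := s.re) (Q := s.im + t) (by linear_combination -n1) h3
  -- the two distances
  have n4 := nsq hN m s 1
  have n5 := nsq hN m s (-1)
  simp only [Complex.one_re, Complex.neg_re, Complex.one_im, Complex.neg_im, neg_zero, sub_zero,
    sub_neg_eq_add] at n4 n5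
  have main : (dist (m + s * A) (m + 1 * A) < 1 ∧ 1 < dist (m + s * A) (m + (-1) * A)) ∨
      (dist (m + s * A) (m + (-1) * A) < 1 ∧ 1 < dist (m + s * A) (m + 1 * A)) := by
    obtain ⟨D, hD⟩ : ∃ D, D = t * (s.im + t) - (1 + t ^ 2) / 2 := ⟨_, rfl⟩
    rw [← hD] at key
    have m4 : dist (m + s * A) (m + 1 * A) ^ 2 * (1 + t ^ 2) = 1 + t ^ 2 - 2 * (s.re + D) := by
      rw [n4, hD]; linear_combination -n1
    have m5 : dist (m + s * A) (m + (-1) * A) ^ 2 * (1 + t ^ 2) = 1 + t ^ 2 - 2 * (-s.re + D) := by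
      rw [n5, hD]; linear_combination -n1
    have hlt : |D| < |s.re| := sq_lt_sq.1 key
    rcases le_total 0 s.re with hs | hs
    · rw [abs_of_nonneg hs] at hlt
      obtain ⟨h7, h8⟩ := abs_lt.1 hlt
      left
      constructor
      · refine lt_of_sq ?_
        by_contra hcon
        push Not at hcon
        have h9 := mul_le_mul_of_nonneg_right hcon hR.le
        rw [m4] at h9; linarith
      · refine gt_of_sq ?_
        by_contra hcon
        push Not at hcon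
        have h9 := mul_le_mul_of_nonneg_right hcon hR.le
        rw [m5] at h9; linarith
    · rw [abs_of_nonpos hs] at hlt
      obtain ⟨h7, h8⟩ := abs_lt.1 hlt
      right
      constructor
      · refine lt_of_sq ?_
        by_contra hcon
        push Not at hcon
        have h9 := mul_le_mul_of_nonneg_right hcon hR.le
        rw [m5] at h9; linarith
      · refine gt_of_sq ?_
        by_contra hcon
        push Not at hcon
        have h9 := mul_le_mul_of_nonneg_right hcon hR.le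
        rw [m4] at h9; linarith
  rcases hc with ⟨h5, h6⟩ | ⟨h5, h6⟩
  · rw [h5, h6]; exact main
  · rw [h5, h6]; exact main.symm

/-- **both corners near**: only `u` -/
theorem both_near {u W p p' h q : ℂ} (hpu : dist p u = 1) (hpW : dist p W = 1)
    (hpu' : dist p' u = 1) (hpW' : dist p' W = 1) (hpp : p ≠ p') (hne : u ≠ W)
    (hhu : dist h u = 1) (hhW : dist h W < 1) (hqh : dist q h = 1) (hq : dist q p ≤ 1)
    (hq' : dist q p' ≤ 1) : q = u := by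
  obtain ⟨m, A, t, ht, hA, eu, eW, hN, hc⟩ := coord_pos hpu hpW hpu' hpW' hpp hne
  have hR : 0 < 1 + t ^ 2 := by positivity
  obtain ⟨r, rfl⟩ : ∃ r, h = m + r * A := ⟨(h - m) / A, by field_simp; ring⟩
  obtain ⟨s, rfl⟩ : ∃ s, q = m + s * A := ⟨(q - m) / A, by field_simp; ring⟩
  rw [eu] at hhu
  rw [eW] at hhW
  obtain ⟨e1, hy⟩ := rim_coord hN ht hhu hhW
  have n2 := nsq hN m s r
  rw [sq_eq_one hqh, one_mul] at n2
  have n4 := nsq hN m s 1
  have n5 := nsq hN m s (-1)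
  simp only [Complex.one_re, Complex.neg_re, Complex.one_im, Complex.neg_im, neg_zero, sub_zero,
    sub_neg_eq_add] at n4 n5
  have h4 : dist (m + s * A) (m + 1 * A) ≤ 1 ∧ dist (m + s * A) (m + (-1) * A) ≤ 1 := by
    rcases hc with ⟨h5, h6⟩ | ⟨h5, h6⟩
    · rw [h5] at hq; rw [h6] at hq'; exact ⟨hq, hq'⟩
    · rw [h5] at hq; rw [h6] at hq'; exact ⟨hq', hq⟩
  have k4 : (s.re - 1) ^ 2 + s.im ^ 2 ≤ 1 + t ^ 2 := by
    have m4 := mul_le_mul_of_nonneg_right (sq_le_one h4.1) hR.le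
    rwa [n4, one_mul] at m4
  have k5 : (s.re + 1) ^ 2 + s.im ^ 2 ≤ 1 + t ^ 2 := by
    have m5 := mul_le_mul_of_nonneg_right (sq_le_one h4.2) hR.le
    rwa [n5, one_mul] at m5
  obtain ⟨h7, h8⟩ := real_near ht hy e1 k4 k5 n2.symm
  have h9 : s = -(t * Complex.I) := by
    apply Complex.ext
    · rw [Complex.neg_re, re_ti, h7, neg_zero]
    · rw [Complex.neg_im, im_ti, h8]
  rw [eu, h9]

/-- **both corners far** -/
theorem both_far {u W p p' h q : ℂ} (hpu : dist p u = 1) (hpW : dist p W = 1)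
    (hpu' : dist p' u = 1) (hpW' : dist p' W = 1) (hpp : p ≠ p') (hne : u ≠ W)
    (hhu : dist h u = 1) (hhW : dist h W < 1) (hqh : dist q h = 1) (hq : 1 ≤ dist q p)
    (hq' : 1 ≤ dist q p') (hqu : q ≠ u) : dist (q + u - h) W ≤ 1 := by
  obtain ⟨m, A, t, ht, hA, eu, eW, hN, hc⟩ := coord_pos hpu hpW hpu' hpW' hpp hne
  have hR : 0 < 1 + t ^ 2 := by positivity
  obtain ⟨r, rfl⟩ : ∃ r, h = m + r * A := ⟨(h - m) / A, by field_simp; ring⟩
  obtain ⟨s, rfl⟩ : ∃ s, q = m + s * A := ⟨(q - m) / A, by field_simp; ring⟩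
  rw [eu] at hhu hqu
  rw [eW] at hhW
  obtain ⟨e1, hy⟩ := rim_coord hN ht hhu hhW
  have n2 := nsq hN m s r
  rw [sq_eq_one hqh, one_mul] at n2
  have n4 := nsq hN m s 1
  have n5 := nsq hN m s (-1)
  simp only [Complex.one_re, Complex.neg_re, Complex.one_im, Complex.neg_im, neg_zero, sub_zero,
    sub_neg_eq_add] at n4 n5
  have h4 : 1 ≤ dist (m + s * A) (m + 1 * A) ∧ 1 ≤ dist (m + s * A) (m + (-1) * A) := by
    rcases hc with ⟨h5, h6⟩ | ⟨h5, h6⟩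
    · rw [h5] at hq; rw [h6] at hq'; exact ⟨hq, hq'⟩
    · rw [h5] at hq; rw [h6] at hq'; exact ⟨hq', hq⟩
  have k4 : 1 + t ^ 2 ≤ (s.re - 1) ^ 2 + s.im ^ 2 := by
    have m4 := mul_le_mul_of_nonneg_right (le_sq_one h4.1) hR.le
    rwa [n4, one_mul] at m4
  have k5 : 1 + t ^ 2 ≤ (s.re + 1) ^ 2 + s.im ^ 2 := by
    have m5 := mul_le_mul_of_nonneg_right (le_sq_one h4.2) hR.le
    rwa [n5, one_mul] at m5
  have h7 := real_far ht hy e1 k4 k5 n2.symm (fun ⟨h7, h8⟩ => hqu (by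
    have h9 : s = -(t * Complex.I) := by
      apply Complex.ext
      · rw [Complex.neg_re, re_ti, h7, neg_zero]
      · rw [Complex.neg_im, im_ti, h8]
    rw [h9]))
  rw [eu, eW, show m + s * A + (m + (-(t * Complex.I)) * A) - (m + r * A) =
    m + (s - (t * Complex.I) - r) * A by ring]
  refine le_of_sq ?_
  have n6 := nsq hN m (s - (t * Complex.I) - r) (t * Complex.I)
  simp only [Complex.sub_re, Complex.sub_im, re_ti, im_ti] at n6
  have h10 : dist (m + (s - (t * Complex.I) - r) * A) (m + (t * Complex.I) * A) ^ 2 * (1 + t ^ 2)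
      ≤ 1 + t ^ 2 := by
    rw [n6]
    linarith [h7, show (s.re - 0 - r.re - 0) ^ 2 + (s.im - t - r.im - t) ^ 2 =
      (s.re - r.re) ^ 2 + (s.im - r.im - 2 * t) ^ 2 by ring]
  exact le_of_mul_le_mul_right (by rw [one_mul]; exact h10) hR

end Vale.Agent.P032.H295
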