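import Vale.Agent.P032.H406.Cross
import Vale.Agent.P032.H295.RimGeo

/-!
# P032: the rim of a lens carries no chain vertex

Wild frame `Irr U T`.  `Lens T u W p p' C K` : the circles of `u` and `W` meet in `p`, `p'`,
`|p - p'| ≤ 1`, and both are in a continuum `K` all of whose points carry the colours of `C`
(`K` = the closed exact `C`-arc of `S(W)`).  Rim: `dist h u = 1`, `dist h W < 1`.

* `Lens.apex` : an apex `g` of `u` and a rim point carries no colour of `C`;
* `Lens.rim_three` : `u` of order at most three, `M` the only colour outside `T u` and `C`: no rim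
  point carries `M`;  `Lens.rim_letter` : every rim point carries a colour of `C`;
* `Lens.rim_zero` : no rim point `V` has an exact `C`-arc on its circle;
* `Lens.rim_link` : `u` a two-pair point with pairs `P`, `A`, free colours `C`, exact `P`-arcs of
  diameter at most one: no rim point carries a colour of `A`.
-/

open Set Filter Topology Metric

noncomputable section

namespace Vale.Agent.P032.H295

open Vale.Agent.P032.Six Vale.Agent.P032.S5.H767 Vale.Agent.P032.H406 Vale.Agent.P032.H678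

variable {U : Fin 6 → Set ℂ} {T : ℂ → Set (Fin 6)}

/-- two apexes of a unit pair -/
theorem exists_apexes {u v : ℂ} (h : dist v u = 1) :
    ∃ g g', dist g u = 1 ∧ dist g v = 1 ∧ dist g' u = 1 ∧ dist g' v = 1 ∧ 1 < dist g g' := by
  have hne : v ≠ u := by
    rintro rfl
    rw [dist_self] at h; exact zero_ne_one h
  obtain ⟨g, g', -, h1, h2, h3, h4, -, -, h5⟩ := two_common (V := v) (W := u) (by rw [h]; norm_num)
    hne
  refine ⟨g, g', h2, h1, h4, h3, ?_⟩
  have h6 := sq_sum h1 h3 h5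
  rw [h] at h6
  exact gt_of_sq (by linarith)

/-- a lens: corners `p`, `p'` on a continuum with the colours of `C` -/
structure Lens (T : ℂ → Set (Fin 6)) (u W p p' : ℂ) (C : Set (Fin 6)) (K : Set ℂ) : Prop where
  pu : dist p u = 1
  pW : dist p W = 1
  pu' : dist p' u = 1
  pW' : dist p' W = 1
  pp : p ≠ p'
  ne : u ≠ W
  diam : dist p p' ≤ 1
  conn : IsPreconnected K
  mem : p ∈ K
  mem' : p' ∈ K
  col : ∀ x ∈ K, C ⊆ T x

namespace Lens

variable {u W p p' : ℂ} {C : Set (Fin 6)} {K : Set ℂ}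

theorem sep_free (L : Lens T u W p p' C K) (h : Irr U T) {g : ℂ}
    (hg : (dist g p < 1 ∧ 1 < dist g p') ∨ (dist g p' < 1 ∧ 1 < dist g p)) {i : Fin 6}
    (hi : i ∈ C) : i ∉ T g := by
  intro hig
  rcases hg with ⟨h1, h2⟩ | ⟨h1, h2⟩
  · exact cross406 h.mx L.conn (fun x hx => h.sub x (L.col x hx hi)) L.mem L.mem' h1 h2
      (h.sub g hig)
  · exact cross406 h.mx L.conn (fun x hx => h.sub x (L.col x hx hi)) L.mem' L.mem h1 h2
      (h.sub g hig)

/-- an apex of `u` and a rim point carries no colour of `C` -/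
theorem apex (L : Lens T u W p p' C K) (h : Irr U T) {v g : ℂ} (hvu : dist v u = 1)
    (hvW : dist v W < 1) (hgu : dist g u = 1) (hgv : dist g v = 1) {i : Fin 6} (hi : i ∈ C) :
    i ∉ T g :=
  L.sep_free h (apex_sep L.pu L.pW L.pu' L.pW' L.pp L.ne L.diam hvu hvW hgu hgv) hi

/-- `M` is absent on the rim -/
theorem rim_three (L : Lens T u W p p' C K) (h : Irr U T) (hu : (T u).ncard ≤ 3) {M : Fin 6}
    (hM : ∀ i, i ∈ T u ∨ i ∈ C ∨ i = M) {v : ℂ} (hvu : dist v u = 1) (hvW : dist v W < 1) :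
    M ∉ T v := by
  intro hMv
  obtain ⟨g, -, hgu, hgv, -, -, -⟩ := exists_apexes hvu
  obtain ⟨h1, h2⟩ := tri hgu hvu
  refine h.not_eventually hgu hgv h1.symm (by rwa [add_comm]) hMv ?_
  filter_upwards [mem_nhdsWithin_of_mem_nhds (h.nhd g), self_mem_nhdsWithin] with q hq hqu
  obtain ⟨i, hi, hiu⟩ := H338.letter_three h hu (show dist q u = 1 from hqu)
  rcases hM i with h3 | h3 | h3
  · exact absurd h3 hiu
  · exact absurd (hq hi) (L.apex h hvu hvW hgu hgv h3)
  · rw [← h3]; exact hi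

/-- every rim point carries a colour of `C` -/
theorem rim_letter (L : Lens T u W p p' C K) (h : Irr U T) (hu : (T u).ncard ≤ 3) {M : Fin 6}
    (hM : ∀ i, i ∈ T u ∨ i ∈ C ∨ i = M) {v : ℂ} (hvu : dist v u = 1) (hvW : dist v W < 1) :
    ∃ i ∈ C, i ∈ T v := by
  obtain ⟨i, hi, hiu⟩ := H338.letter_three h hu hvu
  rcases hM i with h3 | h3 | h3
  · exact absurd h3 hiu
  · exact ⟨i, h3, hi⟩
  · exact absurd (h3 ▸ hi) (L.rim_three h hu hM hvu hvW)

end Lens

/-- an exact arc has a point different from a given one -/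
theorem ex_ne {V : ℂ} {C : Set (Fin 6)} (hE : (Ex T V C).Nonempty) (q0 : ℂ) :
    ∃ q ∈ Ex T V C, q ≠ q0 := by
  obtain ⟨q, hq⟩ := hE
  by_cases h0 : q = q0
  · subst h0
    obtain ⟨f, hf⟩ : ∃ f : ℝ → ℂ, f = fun t : ℝ => V + (q - V) * Complex.exp (t * Complex.I) :=
      ⟨_, rfl⟩
    have hfc : Continuous f := by rw [hf]; fun_prop
    have hf0 : f 0 = q := by rw [hf]; simp
    have hfV : ∀ t, dist (f t) V = 1 := by
      intro t
      rw [hf, dist_eq_norm]
      simp only [add_sub_cancel_left, norm_mul, Complex.norm_exp_ofReal_mul_I, mul_one]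
      rw [← dist_eq_norm]; exact hq.1
    have h1 : Tendsto f (𝓝[≠] 0) (𝓝[sphere V 1] q) := by
      refine tendsto_nhdsWithin_iff.2 ⟨?_, Eventually.of_forall hfV⟩
      have := hfc.tendsto 0
      rw [hf0] at this
      exact this.mono_left nhdsWithin_le_nhds
    have h2 : ∀ᶠ t in 𝓝[≠] (0 : ℝ), f t ∈ Ex T V C := h1.eventually (ex_open hq)
    have h3 : ∀ᶠ t in 𝓝[≠] (0 : ℝ), t ∈ Ioo (-1 : ℝ) 1 :=
      mem_nhdsWithin_of_mem_nhds (Ioo_mem_nhds (by norm_num) (by norm_num))
    obtain ⟨t, ⟨ht, ht1⟩, ht0⟩ := ((h2.and h3).and self_mem_nhdsWithin).exists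
    refine ⟨f t, ht, fun e => ht0 ?_⟩
    have e1 : (q - V) * (Complex.exp (t * Complex.I) - 1) = 0 := by
      have h5 : f t = V + (q - V) * Complex.exp (t * Complex.I) := by rw [hf]
      linear_combination e - h5
    have e2 : q - V ≠ 0 := by
      intro h4
      have := hq.1
      rw [dist_eq_norm, h4, norm_zero] at this
      exact zero_ne_one this
    have e3 : Complex.exp (t * Complex.I) = 1 := by
      rcases mul_eq_zero.1 e1 with h4 | h4
      · exact absurd h4 e2
      · linear_combination h4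
    rw [Complex.exp_eq_one_iff] at e3
    obtain ⟨n, hn⟩ := e3
    have e4 : (t : ℂ) = n * (2 * Real.pi) := by
      have : (t : ℂ) * Complex.I = (n * (2 * Real.pi)) * Complex.I := by rw [hn]; ring
      exact mul_right_cancel₀ Complex.I_ne_zero this
    have e5 : t = n * (2 * Real.pi) := by exact_mod_cast e4
    have hn0 : n = 0 := by
      by_contra hn0
      have h6 : (1 : ℝ) ≤ |(n : ℝ)| := by exact_mod_cast Int.one_le_abs hn0
      have h7 : |t| < 1 := abs_lt.2 ht1
      rw [e5, abs_mul, abs_of_pos (by positivity : (0 : ℝ) < 2 * Real.pi)] at h7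
      nlinarith [Real.pi_gt_three]
    show t = 0
    rw [e5, hn0]; simp
  · exact ⟨q, hq, h0⟩

namespace Lens

variable {u W p p' : ℂ} {C : Set (Fin 6)} {K : Set ℂ}

/-- **no rim point has an exact `C`-arc** -/
theorem rim_zero (L : Lens T u W p p' C K) (h : Irr U T) (hu : (T u).ncard ≤ 3) {M : Fin 6}
    (hM : ∀ i, i ∈ T u ∨ i ∈ C ∨ i = M) (hCu : ∀ i ∈ C, i ∉ T u) {V : ℂ} (hVu : dist V u = 1)
    (hVW : dist V W < 1) (hE : (Ex T V C).Nonempty) (hC : C.Nonempty) : False := by
  obtain ⟨i0, hi0⟩ := hC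
  obtain ⟨q, hq, hq0⟩ := ex_ne hE (2 * V - u)
  have hqV : dist q V = 1 := hq.1
  have hTq : T q = C := ex_self hq
  have hi0q : i0 ∈ T q := by rw [hTq]; exact hi0
  have hqu : q ≠ u := fun e => hCu i0 hi0 (e ▸ hi0q)
  have hs : ∀ x ∈ K, i0 ∈ Pal U x := fun x hx => h.sub x (L.col x hx hi0)
  have hnear : ¬ (dist q p ≤ 1 ∧ dist q p' ≤ 1) := fun ⟨h1, h2⟩ =>
    hqu (both_near L.pu L.pW L.pu' L.pW' L.pp L.ne hVu hVW hqV h1 h2)
  have h1 : 1 ≤ dist q p := by
    by_contra hcon
    push Not at hcon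
    exact hnear ⟨hcon.le, sub_near406 h.mx L.conn hs (h.sub q hi0q) L.mem hcon p' L.mem'⟩
  have h2 : 1 ≤ dist q p' := by
    by_contra hcon
    push Not at hcon
    exact hnear ⟨sub_near406 h.mx L.conn hs (h.sub q hi0q) L.mem' hcon p L.mem, hcon.le⟩
  have h3 := both_far L.pu L.pW L.pu' L.pW' L.pp L.ne hVu hVW hqV h1 h2 hqu
  obtain ⟨g, hg⟩ : ∃ g, g = q + u - V := ⟨_, rfl⟩
  rw [← hg] at h3
  have hgu : dist g u = 1 := by
    rw [hg, dist_eq_norm, show q + u - V - u = q - V by ring, ← dist_eq_norm]; exact hqV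
  have hgq : dist q g = 1 := by
    rw [hg, dist_eq_norm, show q - (q + u - V) = V - u by ring, ← dist_eq_norm]; exact hVu
  have hgV : g ≠ V := fun e => hq0 (by linear_combination e - hg)
  have hgV2 : g + V ≠ 2 * q := by
    intro e
    apply hqu
    rw [hg] at e
    linear_combination -e
  have hfree : ∀ i ∈ C, i ∉ T g := by
    intro i hi hig
    refine h.not_eventually hqV hgq hgV hgV2 hig ?_
    filter_upwards [hq.2] with x hx
    rw [hx]; exact hi
  rcases h3.lt_or_eq with h4 | h4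
  · obtain ⟨i, hi, hig⟩ := L.rim_letter h hu hM hgu h4
    exact hfree i hi hig
  · have hs' : p + p' = u + W := by
      have := second_point L.ne L.pu L.pW L.pu' L.pW' L.pp
      rw [this]
    rcases common_eq L.ne L.pu L.pW hs' hgu h4 with h5 | h5
    · exact hfree i0 hi0 (h5 ▸ L.col p L.mem hi0)
    · exact hfree i0 hi0 (h5 ▸ L.col p' L.mem' hi0)

/-- **no link vertex on the rim of a two-pair point** -/
theorem rim_link (L : Lens T u W p p' C K) (h : Irr U T) {P A : Set (Fin 6)} (hu : TP T u P A)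
    (hC : ∀ i, i ∈ T u ∨ i ∈ C)
    (hd : ∀ x ∈ closure (Ex T u P), ∀ y ∈ closure (Ex T u P), dist x y ≤ 1) {V : ℂ}
    (hVu : dist V u = 1) (hVW : dist V W < 1) {X : Fin 6} (hX : X ∈ A) : X ∉ T V := by
  intro hXV
  have main : ∀ g, dist g u = 1 → dist g V = 1 → g ∉ closure (Ex T u P) → False := by
    intro g hgu hgV hgP
    obtain ⟨h1, h2⟩ := tri hgu hVu
    refine h.not_eventually hgu hgV h1.symm (by rwa [add_comm]) hXV ?_
    filter_upwards [mem_nhdsWithin_of_mem_nhds (h.nhd g), self_mem_nhdsWithin, ev_off hgP]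
      with q hq hqu hqP
    have hsub : T q ⊆ T u := by
      intro i hi
      rcases hC i with h3 | h3
      · exact h3
      · exact absurd (hq hi) (L.apex h hVu hVW hgu hgV h3)
    rcases hu.near q hqu hsub with h3 | h3
    · exact absurd h3.1 hqP
    · exact h3.2 hX
  obtain ⟨g, g', h1, h2, h3, h4, h5⟩ := exists_apexes hVu
  by_cases h6 : g ∈ closure (Ex T u P)
  · by_cases h7 : g' ∈ closure (Ex T u P)
    · exact absurd (hd g h6 g' h7) (not_le.2 h5)
    · exact main g' h3 h4 h7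
  · exact main g h1 h2 h6

end Lens

end Vale.Agent.P032.H295
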