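import Vale.Agent.P032.H295.Rim
import Vale.Agent.P032.H961.Near1
import Vale.Agent.P032.H928.EndsQ
import Vale.Agent.P032.H538.State1

/-!
# P032: the zeros `{a, b, e}`, `{a, b, f}` of a chain vertex, two-pair faces

`V` quasi-full with connecting pair `a, b`, free colours `e, f`.  No quasi-full `W` in the closed disc
of `V` has the face `{a, b, e}` (its connecting pair plus one colour).

* `QF0.no_face` : the open disc, no world structure: only `V` and `W` are quasi-full;
* `QFW.no_face` : the closed disc, in the form of the states (`FcD`).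
-/

open Set Filter Topology Metric

noncomputable section

namespace Vale.Agent.P032.H961

open Vale.Agent.P032.Six Vale.Agent.P032.S5.H767 Vale.Agent.P032.H295

variable {U : Fin 6 → Set ℂ} {T : ℂ → Set (Fin 6)} {V V1 V2 W W1 W2 u : ℂ}
  {a b m n e f g a' b' m' n' e' f' : Fin 6}

theorem QF0.conn295 (h : Irr U T) (hV : QF0 T V a b m n e f V1 V2) :
    IsPreconnected (closure (Ex T V {a, b})) := by
  obtain ⟨s, t, -, -, -, -, h5⟩ := hV.arc' h
  rw [h5]
  exact isPreconnected_Icc.image _ (continuous_pt V).continuousOn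

theorem QF0.exne295 (h : Irr U T) (hV : QF0 T V a b m n e f V1 V2) :
    (Ex T V {a, b}).Nonempty := by
  obtain ⟨s, t, h1, -, -, h4, -⟩ := hV.arc' h
  exact ⟨_, h4 ((s + t) / 2) ⟨by linarith, by linarith⟩⟩

/-- the lens of a three-point `u` and a quasi-full `W` with complementary face -/
theorem QF0.lens295 (h : Irr U T) (hW : QF0 T W a b m n e f W1 W2) (h3 : (T u).ncard ≤ 3)
    (hu : T u = ({a, b, n} : Set (Fin 6))ᶜ) (h2 : dist u W < 2) :
    ∃ p p', Lens T u W p p' {a, b} (closure (Ex T W {a, b})) := by
  obtain ⟨p, p', g1, g2, g3, g4, g5, g6, g7, g8⟩ := hW.contacts h h3 hu h2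
  refine ⟨p, p', g4, g2, g5, g3, g1, ?_, (hW.diam h g7 g8).le, hW.conn295 h, g7, g8, fun x hx =>
    sub_of_closure h hx⟩
  rintro rfl
  have h1 : a ∈ T u := by rw [hW.pal]; simp
  rw [hu] at h1
  exact h1 (by simp)

/-- **no rim vertex**: `V` quasi-full on the circle of the three-point `u`, `T u = {a, b, e}ᶜ`; the
quasi-full `W` with the face `{a', b', n'} = {a, b, e}` is not within distance one of `V` -/
theorem QF0.no_rim (h : Irr U T) (hV : QF0 T V a b m n e f V1 V2)
    (hW : QF0 T W a' b' m' n' e' f' W1 W2) (hface : ({a', b', n'} : Set (Fin 6)) = {a, b, e})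
    (hlt : dist W V < 1) : False := by
  have hnd := hV.nd
  simp only [List.nodup_cons, List.mem_cons, List.not_mem_nil, or_false, not_or,
    List.nodup_nil, and_true, not_false_eq_true] at hnd
  obtain ⟨⟨hab, ham, han, hae, haf⟩, ⟨hbm, hbn, hbe, hbf⟩, ⟨hmn, hme, hmf⟩, ⟨hne, hnf⟩, hef⟩ := hnd
  obtain ⟨u, hu1, hu2⟩ := (hV.ends928 h).2
  have huV : dist u V = 1 := dist_of_closure hu1
  have h3 : (T u).ncard ≤ 3 := by
    rw [hu2]
    refine (Set.ncard_insert_le _ _).trans ?_
    have := Set.ncard_insert_le n ({f} : Set (Fin 6))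
    rw [Set.ncard_singleton] at this
    omega
  have hcompl : T u = ({a, b, e} : Set (Fin 6))ᶜ := by
    rw [hu2]
    ext i
    have h6 := six_cases928 hV.nd i
    simp only [mem_insert_iff, mem_singleton_iff, mem_compl_iff, not_or]
    constructor
    · rintro (rfl | rfl | rfl)
      · exact ⟨Ne.symm ham, Ne.symm hbm, hme⟩
      · exact ⟨Ne.symm han, Ne.symm hbn, hne⟩
      · exact ⟨Ne.symm haf, Ne.symm hbf, Ne.symm hef⟩
    · rintro ⟨h7, h8, h9⟩
      tauto
  have hdist : dist u W < 2 := by
    have := dist_triangle u V W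
    rw [dist_comm V W] at this
    linarith
  obtain ⟨p, p', L⟩ := hW.lens295 h h3 (by rw [hcompl, hface]) hdist
  have hVu : dist V u = 1 := by rw [dist_comm]; exact huV
  have hVW : dist V W < 1 := by rw [dist_comm]; exact hlt
  have hM : ∀ i, i ∈ T u ∨ i ∈ ({a', b'} : Set (Fin 6)) ∨ i = n' := by
    intro i
    by_cases h7 : i ∈ ({a', b', n'} : Set (Fin 6))
    · right
      simp only [mem_insert_iff, mem_singleton_iff] at h7 ⊢
      tauto
    · left
      rw [hcompl, ← hface]
      exact h7
  have h8 := L.rim_three h h3 hM hVu hVW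
  -- the third colour of the face is `e`
  have h9 : n' = e := by
    have h10 : n' ∈ ({a, b, e} : Set (Fin 6)) := by rw [← hface]; simp
    rcases h10 with h10 | h10 | h10
    · exact absurd (by rw [h10, hV.pal]; simp) h8
    · exact absurd (by rw [h10, hV.pal]; simp) h8
    · exact h10
  have hnd' := hW.nd
  simp only [List.nodup_cons, List.mem_cons, List.not_mem_nil, or_false, not_or,
    List.nodup_nil, and_true, not_false_eq_true] at hnd'
  obtain ⟨⟨hab', ham', han', hae', haf'⟩, ⟨hbm', hbn', hbe', hbf'⟩, -⟩ := hnd'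
  have hC : ({a', b'} : Set (Fin 6)) = {a, b} := by
    refine Set.eq_of_subset_of_ncard_le ?_ ?_ (Set.toFinite _)
    · intro i hi
      have h10 : i ∈ ({a, b, e} : Set (Fin 6)) := by
        rw [← hface]
        rcases hi with rfl | hi
        · simp
        · rw [mem_singleton_iff] at hi; rw [hi]; simp
      have h11 : i ≠ e := by
        rintro rfl
        rcases hi with hi | hi
        · exact han' (by rw [h9]; exact hi.symm)
        · exact hbn' (by rw [h9]; exact hi.symm)
      rcases h10 with h10 | h10 | h10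
      · left; exact h10
      · right; exact h10
      · exact absurd h10 h11
    · rw [Set.ncard_pair hab, Set.ncard_pair hab']
  rw [hC] at L hM
  refine L.rim_zero h h3 hM ?_ hVu hVW (hV.exne295 h) ⟨a, by simp⟩
  intro i hi
  rw [hcompl]
  intro h10
  apply h10
  rcases hi with rfl | hi
  · simp
  · rw [mem_singleton_iff] at hi
    rw [hi]; simp

end Vale.Agent.P032.H961
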